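import Vale.Agent.P091.H318.Tree

/-! # P091: the classes may be cut at the first node where their mass is tiny

`HEAVYC` is `HEAVY` restricted to the pairs (class, node) such that the mass of the class is at
least `eps = exp(-(2 C0 + 2) D)` in the node, in all nodes between the start node and the node, and
in the child which contains the leaf.  `heavy_of_cut : HEAVYC → HEAVY`. -/

open Finset

namespace Vale.Agent.P091.H318
open Vale.Agent.P091.Spec

variable {C0 D : ℝ} {n : ℕ} {ι : Type} [Fintype ι]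

/-- the class `k` has mass at least `eps` in all nodes of the levels `js k, …, j + 1` which contain
the leaf `i` -/
def alive (d : HData C0 D n ι) (eps : ℝ) (k : ι) (j i : ℕ) : Prop :=
  ∀ t, d.js k ≤ t → t ≤ j + 1 → eps ≤ av n t (anc n t i) (d.a k)

open Classical in
/-- the form of the heavy part, restricted to the alive pairs -/
noncomputable def gainCut (d : HData C0 D n ι) (eps : ℝ) : ℂ :=
  ∑ k, ∑ j ∈ Ico (d.js k + 3) (n - 1),
    (∑ i ∈ range (2 ^ n), if alive d eps k j i then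
      d.A k i * sg n j i * dB n d.p (d.ξ k) j (anc n j i) else 0) / 2 ^ n

/-- **T block, with classes which are cut when they become tiny.** -/
def HEAVYC : Prop := ∀ C0 : ℝ, 0 ≤ C0 → ∃ C : ℝ, ∀ (D : ℝ) (n : ℕ) (ι : Type) [Fintype ι]
  (d : HData C0 D n ι), 2 ≤ D → ‖gainCut d (Real.exp (-((2 * C0 + 2) * D)))‖ ≤ C * D

/-! ## the mass of the leaves below tiny nodes -/

open Classical in
theorem tiny_mass {a : ℕ → ℝ} (ha : ∀ i, 0 ≤ a i) {eps : ℝ} (heps : 0 ≤ eps) :
    ∀ m j b : ℕ, j + m = n →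
    ∑ i ∈ nd n j b, (if ∃ t, j ≤ t ∧ t ≤ n ∧ av n t (anc n t i) a < eps then a i else 0) ≤
      eps * 2 ^ (n - j) := by
  intro m
  induction m with
  | zero =>
    intro j b hj
    have hj' : j = n := by omega
    subst hj'
    have hnd : nd j j b = {b} := by
      simp [nd]
    rw [hnd, sum_singleton]
    have hb : anc j j b = b := by simp [anc]
    split_ifs with h
    · obtain ⟨t, h1, h2, h3⟩ := h
      have ht : t = j := by omega
      subst ht
      rw [hb] at h3
      have : av t t b a = a b := by simp [av, nd]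
      rw [this] at h3
      simpa using h3.le
    · simpa using heps
  | succ m ih =>
    intro j b hj
    by_cases hb : av n j b a < eps
    · calc ∑ i ∈ nd n j b, (if ∃ t, j ≤ t ∧ t ≤ n ∧ av n t (anc n t i) a < eps then a i else 0)
          ≤ ∑ i ∈ nd n j b, a i := by
            refine sum_le_sum fun i _ => ?_
            split_ifs
            · exact le_rfl
            · exact ha i
        _ = av n j b a * 2 ^ (n - j) := by
            unfold av
            field_simp
        _ ≤ eps * 2 ^ (n - j) := by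
            have : (0 : ℝ) < 2 ^ (n - j) := by positivity
            nlinarith
    · have hj1 : j + 1 ≤ n := by omega
      rw [sum_nd_succ hj1]
      have hsub : ∀ c, (c = 2 * b ∨ c = 2 * b + 1) → ∑ i ∈ nd n (j + 1) c,
          (if ∃ t, j ≤ t ∧ t ≤ n ∧ av n t (anc n t i) a < eps then a i else 0) ≤
          eps * 2 ^ (n - (j + 1)) := by
        intro c hc
        refine le_trans (le_of_eq (sum_congr rfl fun i hi => ?_)) (ih (j + 1) c (by omega))
        have hib : anc n j i = b := by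
          rw [anc_anc (t := j) (j := j + 1) (by omega) hj1, mem_nd.1 hi]
          have : 2 ^ (j + 1 - j) = 2 := by
            rw [show j + 1 - j = 1 by omega]; rfl
          rw [this]; omega
        have : (∃ t, j ≤ t ∧ t ≤ n ∧ av n t (anc n t i) a < eps) ↔
            (∃ t, j + 1 ≤ t ∧ t ≤ n ∧ av n t (anc n t i) a < eps) := by
          constructor
          · rintro ⟨t, h1, h2, h3⟩
            refine ⟨t, ?_, h2, h3⟩
            rcases Nat.lt_or_ge j t with h | h
            · exact h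
            · exfalso
              have : t = j := by omega
              subst this
              rw [hib] at h3
              exact hb h3
          · rintro ⟨t, h1, h2, h3⟩
            exact ⟨t, by omega, h2, h3⟩
        simp only [this]
      have h1 := hsub (2 * b) (Or.inl rfl)
      have h2 := hsub (2 * b + 1) (Or.inr rfl)
      have h3 : ((2 : ℝ) ^ (n - j)) = 2 * 2 ^ (n - (j + 1)) := by
        have := two_pow_sub hj1
        exact_mod_cast this
      rw [h3]
      linarith

/-! ## the x-side functional at a node -/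

/-- the sign of the child -/
theorem sum_sg {j c : ℕ} (hj : j + 2 ≤ n) (F : ℕ → ℂ) :
    ∃ s : ℂ, ‖s‖ = 1 ∧ ∑ i ∈ nd n (j + 1) c, F i * sg n j i =
      s * ((2 : ℂ) ^ (n - (j + 1)) * dC n (j + 1) c F) := by
  have hval : ∀ c', ∀ i ∈ nd n (j + 2) c', i / 2 ^ (n - j - 2) = c' := by
    intro c' i hi
    have := mem_nd.1 hi
    unfold anc at this
    rwa [show n - j - 2 = n - (j + 2) by omega]
  have hpow : ((2 : ℂ) ^ (n - (j + 1))) = 2 * 2 ^ (n - (j + 1 + 1)) := by
    have := two_pow_sub (n := n) (j := j + 1) (by omega)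
    exact_mod_cast this
  have havC : ∀ c', ∑ i ∈ nd n (j + 1 + 1) c', F i = 2 ^ (n - (j + 1 + 1)) * avC n (j + 1 + 1) c' F := by
    intro c'
    unfold avC
    field_simp
  rw [sum_nd_succ (by omega : j + 1 + 1 ≤ n)]
  rcases Nat.even_or_odd' c with ⟨m, hm | hm⟩
  · refine ⟨1, by simp, ?_⟩
    have e1 : ∑ i ∈ nd n (j + 1 + 1) (2 * c), F i * sg n j i = ∑ i ∈ nd n (j + 1 + 1) (2 * c), F i := by
      refine sum_congr rfl fun i hi => ?_
      have h := hval _ i hi
      have : sg n j i = 1 := by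
        unfold sg
        rw [h, if_pos]
        left; omega
      rw [this]; simp
    have e2 : ∑ i ∈ nd n (j + 1 + 1) (2 * c + 1), F i * sg n j i =
        - ∑ i ∈ nd n (j + 1 + 1) (2 * c + 1), F i := by
      rw [← sum_neg_distrib]
      refine sum_congr rfl fun i hi => ?_
      have h := hval _ i hi
      have : sg n j i = -1 := by
        unfold sg
        rw [h, if_neg]
        omega
      rw [this]; simp
    rw [e1, e2, havC, havC, dC, hpow]
    ring
  · refine ⟨-1, by simp, ?_⟩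
    have e1 : ∑ i ∈ nd n (j + 1 + 1) (2 * c), F i * sg n j i =
        - ∑ i ∈ nd n (j + 1 + 1) (2 * c), F i := by
      rw [← sum_neg_distrib]
      refine sum_congr rfl fun i hi => ?_
      have h := hval _ i hi
      have : sg n j i = -1 := by
        unfold sg
        rw [h, if_neg]
        omega
      rw [this]; simp
    have e2 : ∑ i ∈ nd n (j + 1 + 1) (2 * c + 1), F i * sg n j i =
        ∑ i ∈ nd n (j + 1 + 1) (2 * c + 1), F i := by
      refine sum_congr rfl fun i hi => ?_
      have h := hval _ i hi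
      have : sg n j i = 1 := by
        unfold sg
        rw [h, if_pos]
        right; omega
      rw [this]; simp
    rw [e1, e2, havC, havC, dC, hpow]
    ring

/-! ## one class -/

/-- the leaf `i` lies below a tiny node of the class `k` -/
def lbad (d : HData C0 D n ι) (eps : ℝ) (k : ι) (i : ℕ) : Prop :=
  ∃ t, d.js k ≤ t ∧ t ≤ n ∧ av n t (anc n t i) (d.a k) < eps

open Classical in
noncomputable def Aflat (d : HData C0 D n ι) (eps : ℝ) (k : ι) : ℕ → ℂ := fun i =>
  if lbad d eps k i then d.A k i else 0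

noncomputable def Fsharp (d : HData C0 D n ι) (k : ι) : ℕ → ℂ := fun i =>
  if i ∈ nd n (d.js k) (d.ac k) then (d.p i : ℂ) * e (-(d.ξ k * i)) else 0

theorem a_zero (d : HData C0 D n ι) {k : ι} {i : ℕ} (h : i ∉ nd n (d.js k) (d.ac k)) :
    d.a k i = 0 := by
  by_contra h'
  exact h (d.a_supp k i h')

theorem A_zero (d : HData C0 D n ι) {k : ι} {i : ℕ} (h : d.a k i = 0) : d.A k i = 0 := by
  have := d.A_le k i
  rw [h] at this
  exact norm_le_zero_iff.1 this

theorem norm_e (t : ℝ) : ‖e t‖ = 1 := by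
  unfold e
  rw [show (2 * (Real.pi : ℂ) * Complex.I * (t : ℂ)) = ((2 * Real.pi * t : ℝ) : ℂ) * Complex.I by
    push_cast; ring]
  exact Complex.norm_exp_ofReal_mul_I _

open Classical in
theorem term_le (d : HData C0 D n ι) (eps : ℝ) (k : ι) {j c : ℕ} (hjs : d.js k + 3 ≤ j)
    (hj : j + 2 ≤ n) :
    ‖∑ i ∈ nd n (j + 1) c, (if alive d eps k j i then 0 else
      d.A k i * sg n j i * dB n d.p (d.ξ k) j (anc n j i))‖ ≤
    (2 : ℝ) ^ (n - (j + 1)) * (‖dC n (j + 1) c (Aflat d eps k)‖ * ‖dC n j (c / 2) (Fsharp d k)‖) := by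
  have hi0 : c * 2 ^ (n - (j + 1)) ∈ nd n (j + 1) c := by
    unfold nd
    rw [mem_Ico]
    refine ⟨le_rfl, ?_⟩
    exact Nat.mul_lt_mul_of_pos_right (Nat.lt_succ_self c) (pow_pos' _)
  set i0 := c * 2 ^ (n - (j + 1)) with hi0def
  have hal : ∀ i ∈ nd n (j + 1) c, (alive d eps k j i ↔ alive d eps k j i0) := by
    intro i hi
    unfold alive
    constructor
    · intro h t h1 h2
      rw [← anc_eq_of_mem h2 (by omega : j + 1 ≤ n) hi hi0]
      exact h t h1 h2
    · intro h t h1 h2
      rw [anc_eq_of_mem h2 (by omega : j + 1 ≤ n) hi hi0]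
      exact h t h1 h2
  by_cases h : alive d eps k j i0
  · have : ∑ i ∈ nd n (j + 1) c, (if alive d eps k j i then 0 else
        d.A k i * sg n j i * dB n d.p (d.ξ k) j (anc n j i)) = 0 := by
      refine sum_eq_zero fun i hi => ?_
      rw [if_pos ((hal i hi).2 h)]
    rw [this, norm_zero]
    positivity
  · have hanc : ∀ i ∈ nd n (j + 1) c, anc n j i = c / 2 := by
      intro i hi
      rw [anc_anc (t := j) (j := j + 1) (by omega) (by omega), mem_nd.1 hi]
      rw [show j + 1 - j = 1 by omega]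
      rfl
    have e1 : ∑ i ∈ nd n (j + 1) c, (if alive d eps k j i then 0 else
        d.A k i * sg n j i * dB n d.p (d.ξ k) j (anc n j i)) =
        (∑ i ∈ nd n (j + 1) c, d.A k i * sg n j i) * dB n d.p (d.ξ k) j (c / 2) := by
      rw [sum_mul]
      refine sum_congr rfl fun i hi => ?_
      rw [if_neg (fun h' => h ((hal i hi).1 h')), hanc i hi]
    obtain ⟨s, hs, hs2⟩ := sum_sg (n := n) (j := j) (c := c) hj (d.A k)
    have hA : dC n (j + 1) c (d.A k) = dC n (j + 1) c (Aflat d eps k) := by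
      refine dC_congr (by omega) fun i hi => ?_
      have : ¬ alive d eps k j i := fun h' => h ((hal i hi).1 h')
      unfold alive at this
      push Not at this
      obtain ⟨t, h1, h2, h3⟩ := this
      unfold Aflat
      rw [if_pos ⟨t, h1, by omega, h3⟩]
    rw [e1, hs2, dB_eq, hA]
    by_cases hac : anc n (d.js k) i0 = d.ac k
    · have hF : dC n j (c / 2) (fun i => (d.p i : ℂ) * e (-(d.ξ k * i))) =
          dC n j (c / 2) (Fsharp d k) := by
        refine dC_congr (by omega) fun i hi => ?_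
        unfold Fsharp
        rw [if_pos]
        rw [mem_nd, ← hac]
        have hi0' : i0 ∈ nd n j (c / 2) := mem_nd.2 (hanc i0 hi0)
        exact anc_eq_of_mem (by omega) (by omega) hi hi0'
      rw [hF, norm_mul, norm_mul, norm_mul, hs, one_mul]
      simp only [norm_pow, Complex.norm_ofNat]
      rw [mul_assoc]
    · have h0 : dC n (j + 1) c (Aflat d eps k) = 0 := by
        refine dC_zero (by omega) fun i hi => ?_
        unfold Aflat
        split_ifs
        · apply A_zero d
          apply a_zero d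
          rw [mem_nd]
          intro h'
          apply hac
          rw [← h']
          exact (anc_eq_of_mem (by omega) (by omega) hi hi0).symm
        · rfl
      rw [h0]
      simp

/-- energy of the `x` side -/
theorem X_le (d : HData C0 D n ι) {eps : ℝ} (heps : 0 ≤ eps) (k : ι) :
    ∑ j ∈ Ico (d.js k + 3) (n - 1), ∑ c ∈ range (2 ^ (j + 1)),
      (2 : ℝ) ^ (n - (j + 1)) * ‖dC n (j + 1) c (Aflat d eps k)‖ ^ 2 ≤
    eps * 2 ^ (n - d.js k) := by
  classical
  have h1 : ∑ j ∈ Ico (d.js k + 3) (n - 1), ∑ c ∈ range (2 ^ (j + 1)),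
      (2 : ℝ) ^ (n - (j + 1)) * ‖dC n (j + 1) c (Aflat d eps k)‖ ^ 2 ≤
      ∑ i ∈ range (2 ^ n), ‖Aflat d eps k i‖ ^ 2 := by
    refine le_trans ?_ (energy n (Aflat d eps k))
    rw [sum_Ico_add' (fun j => ∑ c ∈ range (2 ^ j),
      (2 : ℝ) ^ (n - j) * ‖dC n j c (Aflat d eps k)‖ ^ 2)]
    refine sum_le_sum_of_subset_of_nonneg ?_ fun j _ _ => sum_nonneg fun c _ => by positivity
    intro j hj
    rw [mem_Ico] at hj
    rw [mem_range]
    omega
  refine h1.trans ?_
  have h2 : ∑ i ∈ range (2 ^ n), ‖Aflat d eps k i‖ ^ 2 =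
      ∑ i ∈ nd n (d.js k) (d.ac k), ‖Aflat d eps k i‖ ^ 2 := by
    symm
    refine sum_subset (nd_subset (d.js_le k) (d.ac_lt k)) fun i _ hi => ?_
    have : Aflat d eps k i = 0 := by
      unfold Aflat
      split_ifs
      · exact A_zero d (a_zero d hi)
      · rfl
    rw [this]; simp
  rw [h2]
  refine le_trans ?_ (tiny_mass (n := n) (a := d.a k) (d.a_nonneg k) heps (n - d.js k) (d.js k)
    (d.ac k) (by have := d.js_le k; omega))
  refine sum_le_sum fun i _ => ?_
  unfold Aflat lbad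
  split_ifs with h
  · have ha : d.a k i ≤ 1 := le_trans (single_le_sum (f := fun k => d.a k i)
      (fun k _ => d.a_nonneg k i) (mem_univ k)) (d.a_sum i)
    have hA := d.A_le k i
    have h0 := norm_nonneg (d.A k i)
    have h00 := d.a_nonneg k i
    nlinarith
  · simp

/-- energy of the `y` side -/
theorem Y_le (d : HData C0 D n ι) (k : ι) (hk : ∃ i, d.A k i ≠ 0) :
    ∑ j ∈ Ico (d.js k + 3) (n - 1), ∑ c ∈ range (2 ^ (j + 1)),
      (2 : ℝ) ^ (n - (j + 1)) * ‖dC n j (c / 2) (Fsharp d k)‖ ^ 2 ≤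
    Real.exp D * Real.log D ^ 2 * 2 ^ (n - d.js k) := by
  classical
  have h1 : ∑ j ∈ Ico (d.js k + 3) (n - 1), ∑ c ∈ range (2 ^ (j + 1)),
      (2 : ℝ) ^ (n - (j + 1)) * ‖dC n j (c / 2) (Fsharp d k)‖ ^ 2 =
      ∑ j ∈ Ico (d.js k + 3) (n - 1), ∑ c ∈ range (2 ^ j),
        (2 : ℝ) ^ (n - j) * ‖dC n j c (Fsharp d k)‖ ^ 2 := by
    refine sum_congr rfl fun j hj => ?_
    rw [mem_Ico] at hj
    rw [pow_succ 2 j, mul_comm (2 ^ j) 2, sum_range_two_mul]
    refine sum_congr rfl fun c _ => ?_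
    have h3 : ((2 : ℝ) ^ (n - j)) = 2 * 2 ^ (n - (j + 1)) := by
      have := two_pow_sub (n := n) (j := j) (by omega)
      exact_mod_cast this
    rw [show 2 * c / 2 = c by omega, show (2 * c + 1) / 2 = c by omega, h3]
    ring
  rw [h1]
  have h2 : ∑ j ∈ Ico (d.js k + 3) (n - 1), ∑ c ∈ range (2 ^ j),
        (2 : ℝ) ^ (n - j) * ‖dC n j c (Fsharp d k)‖ ^ 2 ≤
      ∑ i ∈ range (2 ^ n), ‖Fsharp d k i‖ ^ 2 := by
    refine le_trans ?_ (energy n (Fsharp d k))
    refine sum_le_sum_of_subset_of_nonneg ?_ fun j _ _ => sum_nonneg fun c _ => by positivity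
    intro j hj
    rw [mem_Ico] at hj
    rw [mem_range]
    omega
  refine h2.trans ?_
  have h3 : ∑ i ∈ range (2 ^ n), ‖Fsharp d k i‖ ^ 2 =
      ∑ i ∈ nd n (d.js k) (d.ac k), d.p i ^ 2 := by
    rw [← sum_subset (nd_subset (d.js_le k) (d.ac_lt k)) fun i _ hi => ?_]
    · refine sum_congr rfl fun i hi => ?_
      unfold Fsharp
      rw [if_pos hi, norm_mul, norm_e, mul_one, Complex.norm_real, Real.norm_eq_abs, sq_abs]
    · unfold Fsharp
      rw [if_neg hi]; simp
  rw [h3]
  obtain ⟨i, hi⟩ := hk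
  have hai : d.a k i ≠ 0 := fun h => hi (A_zero d h)
  have hin := d.a_supp k i hai
  have hav := d.alive k i hi (d.js k) (d.js_le k)
  rw [mem_nd.1 hin] at hav
  calc ∑ i ∈ nd n (d.js k) (d.ac k), d.p i ^ 2
      ≤ ∑ i ∈ nd n (d.js k) (d.ac k), Real.exp D * d.p i := by
        refine sum_le_sum fun i _ => ?_
        have h1 := d.p_nonneg i
        have h2 := d.p_le i
        nlinarith
    _ = Real.exp D * (av n (d.js k) (d.ac k) d.p * 2 ^ (n - d.js k)) := by
        rw [← mul_sum]
        unfold av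
        field_simp
    _ ≤ Real.exp D * (Real.log D ^ 2 * 2 ^ (n - d.js k)) := by
        have h1 : (0 : ℝ) < 2 ^ (n - d.js k) := by positivity
        have h2 := Real.exp_pos D
        gcongr
    _ = _ := by ring

open Classical in
/-- one class: the removed pairs -/
theorem class_le (d : HData C0 D n ι) {eps : ℝ} (heps : 0 ≤ eps) (k : ι) {Λ : ℝ} (hΛ : 0 < Λ) :
    ‖∑ j ∈ Ico (d.js k + 3) (n - 1),
      (∑ i ∈ range (2 ^ n), if alive d eps k j i then 0 else
        d.A k i * sg n j i * dB n d.p (d.ξ k) j (anc n j i)) / 2 ^ n‖ ≤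
    (Λ * eps + Real.exp D * Real.log D ^ 2 / Λ) / 2 * (1 / 2 ^ d.js k) := by
  by_cases hk : ∃ i, d.A k i ≠ 0
  · have h1 : ‖∑ j ∈ Ico (d.js k + 3) (n - 1),
        (∑ i ∈ range (2 ^ n), if alive d eps k j i then 0 else
          d.A k i * sg n j i * dB n d.p (d.ξ k) j (anc n j i)) / 2 ^ n‖ ≤
        (∑ j ∈ Ico (d.js k + 3) (n - 1), ∑ c ∈ range (2 ^ (j + 1)),
          (Λ * ((2 : ℝ) ^ (n - (j + 1)) * ‖dC n (j + 1) c (Aflat d eps k)‖ ^ 2) +
            ((2 : ℝ) ^ (n - (j + 1)) * ‖dC n j (c / 2) (Fsharp d k)‖ ^ 2) / Λ) / 2) / 2 ^ n := by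
      rw [sum_div]
      refine (norm_sum_le _ _).trans (sum_le_sum fun j hj => ?_)
      rw [mem_Ico] at hj
      rw [norm_div, norm_pow, Complex.norm_ofNat]
      gcongr
      rw [sum_leaves (j := j + 1) (by omega)]
      refine (norm_sum_le _ _).trans (sum_le_sum fun c _ => ?_)
      refine (term_le d eps k (by omega) (by omega)).trans ?_
      set x := ‖dC n (j + 1) c (Aflat d eps k)‖
      set y := ‖dC n j (c / 2) (Fsharp d k)‖
      have hxy : x * y ≤ (Λ * x ^ 2 + y ^ 2 / Λ) / 2 := by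
        have h := sq_nonneg (Λ * x - y)
        have : (Λ * x ^ 2 + y ^ 2 / Λ) / 2 - x * y = (Λ * x - y) ^ 2 / (2 * Λ) := by
          field_simp
          ring
        have h2 : 0 ≤ (Λ * x - y) ^ 2 / (2 * Λ) := by positivity
        linarith
      have hw : (0 : ℝ) < 2 ^ (n - (j + 1)) := by positivity
      calc (2 : ℝ) ^ (n - (j + 1)) * (x * y)
          ≤ (2 : ℝ) ^ (n - (j + 1)) * ((Λ * x ^ 2 + y ^ 2 / Λ) / 2) := by gcongr
        _ = _ := by ring
    refine h1.trans ?_
    have h2 : (∑ j ∈ Ico (d.js k + 3) (n - 1), ∑ c ∈ range (2 ^ (j + 1)),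
          (Λ * ((2 : ℝ) ^ (n - (j + 1)) * ‖dC n (j + 1) c (Aflat d eps k)‖ ^ 2) +
            ((2 : ℝ) ^ (n - (j + 1)) * ‖dC n j (c / 2) (Fsharp d k)‖ ^ 2) / Λ) / 2) =
        (Λ * (∑ j ∈ Ico (d.js k + 3) (n - 1), ∑ c ∈ range (2 ^ (j + 1)),
            (2 : ℝ) ^ (n - (j + 1)) * ‖dC n (j + 1) c (Aflat d eps k)‖ ^ 2) +
          (∑ j ∈ Ico (d.js k + 3) (n - 1), ∑ c ∈ range (2 ^ (j + 1)),
            (2 : ℝ) ^ (n - (j + 1)) * ‖dC n j (c / 2) (Fsharp d k)‖ ^ 2) / Λ) / 2 := by
      rw [mul_sum, sum_div, ← sum_add_distrib, sum_div]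
      refine sum_congr rfl fun j _ => ?_
      rw [mul_sum, sum_div, ← sum_add_distrib, sum_div]
    rw [h2]
    have hX := X_le d heps k
    have hY := Y_le d k hk
    have hpow : ((2 : ℝ) ^ n) = 2 ^ d.js k * 2 ^ (n - d.js k) := by
      rw [← pow_add]; congr 1; have := d.js_le k; omega
    have hM : (0 : ℝ) < 2 ^ (n - d.js k) := by positivity
    have hJ : (0 : ℝ) < 2 ^ d.js k := by positivity
    rw [hpow, div_le_iff₀ (by positivity)]
    calc (Λ * (∑ j ∈ Ico (d.js k + 3) (n - 1), ∑ c ∈ range (2 ^ (j + 1)),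
            (2 : ℝ) ^ (n - (j + 1)) * ‖dC n (j + 1) c (Aflat d eps k)‖ ^ 2) +
          (∑ j ∈ Ico (d.js k + 3) (n - 1), ∑ c ∈ range (2 ^ (j + 1)),
            (2 : ℝ) ^ (n - (j + 1)) * ‖dC n j (c / 2) (Fsharp d k)‖ ^ 2) / Λ) / 2
        ≤ (Λ * (eps * 2 ^ (n - d.js k)) +
            (Real.exp D * Real.log D ^ 2 * 2 ^ (n - d.js k)) / Λ) / 2 := by gcongr
      _ = (Λ * eps + Real.exp D * Real.log D ^ 2 / Λ) / 2 * (1 / 2 ^ d.js k) *
            (2 ^ d.js k * 2 ^ (n - d.js k)) := by
          field_simp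
  · push Not at hk
    have : ∑ j ∈ Ico (d.js k + 3) (n - 1),
        (∑ i ∈ range (2 ^ n), if alive d eps k j i then 0 else
          d.A k i * sg n j i * dB n d.p (d.ξ k) j (anc n j i)) / 2 ^ n = 0 := by
      refine sum_eq_zero fun j _ => ?_
      rw [sum_eq_zero, zero_div]
      intro i _
      rw [hk i]
      simp
    rw [this, norm_zero]
    positivity

/-- the number of classes, weighted by the size of the start nodes -/
theorem sum_start (d : HData C0 D n ι) :
    ∑ k, (1 : ℝ) / 2 ^ d.js k ≤ Real.exp (C0 * D) := by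
  have h1 : ∀ k, (1 : ℝ) / 2 ^ d.js k ≤ Real.exp (C0 * D) * ((∑ i ∈ range (2 ^ n), d.a k i) / 2 ^ n) := by
    intro k
    have hm := d.a_mass k
    have hpow : ((2 : ℝ) ^ n) = 2 ^ d.js k * 2 ^ (n - d.js k) := by
      rw [← pow_add]; congr 1; have := d.js_le k; omega
    have hM : (0 : ℝ) < 2 ^ (n - d.js k) := by positivity
    have hJ : (0 : ℝ) < 2 ^ d.js k := by positivity
    have hs : ∑ i ∈ range (2 ^ n), d.a k i = ∑ i ∈ nd n (d.js k) (d.ac k), d.a k i := by
      symm
      exact sum_subset (nd_subset (d.js_le k) (d.ac_lt k)) fun i _ hi => a_zero d hi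
    rw [hs, hpow]
    unfold av at hm
    have h2 : 1 ≤ Real.exp (C0 * D) * ((∑ i ∈ nd n (d.js k) (d.ac k), d.a k i) / 2 ^ (n - d.js k)) := by
      have : (1 : ℝ) = Real.exp (C0 * D) * Real.exp (-(C0 * D)) := by
        rw [← Real.exp_add]; simp
      rw [this]
      gcongr
    calc (1 : ℝ) / 2 ^ d.js k
        ≤ (Real.exp (C0 * D) * ((∑ i ∈ nd n (d.js k) (d.ac k), d.a k i) / 2 ^ (n - d.js k))) /
            2 ^ d.js k := by gcongr
      _ = _ := by field_simp
  refine (sum_le_sum fun k _ => h1 k).trans ?_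
  rw [← mul_sum, ← sum_div, sum_comm]
  have h3 : ∑ i ∈ range (2 ^ n), ∑ k, d.a k i ≤ 2 ^ n := by
    refine (sum_le_sum fun i _ => d.a_sum i).trans ?_
    simp
  have h4 : (∑ i ∈ range (2 ^ n), ∑ k, d.a k i) / (2 : ℝ) ^ n ≤ 1 := by
    rw [div_le_one (by positivity)]
    exact h3
  have := Real.exp_pos (C0 * D)
  nlinarith

/-- **the tiny pairs contribute at most `1`** -/
theorem cut_le (d : HData C0 D n ι) (hD : 2 ≤ D) :
    ‖d.gain - gainCut d (Real.exp (-((2 * C0 + 2) * D)))‖ ≤ 1 := by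
  classical
  set eps := Real.exp (-((2 * C0 + 2) * D)) with heps
  have hL : 0 < Real.log D := Real.log_pos (by linarith)
  set Λ := Real.exp ((C0 + 3 / 2) * D) * Real.log D with hΛ
  have hΛ0 : 0 < Λ := by positivity
  have e1 : d.gain - gainCut d eps = ∑ k, ∑ j ∈ Ico (d.js k + 3) (n - 1),
      (∑ i ∈ range (2 ^ n), if alive d eps k j i then 0 else
        d.A k i * sg n j i * dB n d.p (d.ξ k) j (anc n j i)) / 2 ^ n := by
    unfold HData.gain gainCut
    rw [← sum_sub_distrib]
    refine sum_congr rfl fun k _ => ?_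
    rw [← sum_sub_distrib]
    refine sum_congr rfl fun j _ => ?_
    rw [← sub_div, ← sum_sub_distrib]
    congr 1
    refine sum_congr rfl fun i _ => ?_
    split_ifs <;> simp
  rw [e1]
  refine (norm_sum_le _ _).trans ((sum_le_sum fun k _ => class_le d (Real.exp_pos _).le k hΛ0).trans ?_)
  rw [← mul_sum]
  have e2 : (Λ * eps + Real.exp D * Real.log D ^ 2 / Λ) / 2 =
      Real.exp (-((C0 + 1 / 2) * D)) * Real.log D := by
    have a1 : Λ * eps = Real.exp (-((C0 + 1 / 2) * D)) * Real.log D := by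
      rw [hΛ, heps, mul_right_comm, ← Real.exp_add]
      congr 2; ring
    have a2 : Real.exp D * Real.log D ^ 2 / Λ = Real.exp (-((C0 + 1 / 2) * D)) * Real.log D := by
      rw [div_eq_iff hΛ0.ne', hΛ]
      have : Real.exp D = Real.exp (-((C0 + 1 / 2) * D)) * Real.exp ((C0 + 3 / 2) * D) := by
        rw [← Real.exp_add]; congr 1; ring
      rw [this]; ring
    rw [a1, a2]; ring
  rw [e2]
  have h3 := sum_start d
  have h4 : Real.log D ≤ Real.exp (D / 2) := by
    have := Real.add_one_le_exp (D / 2)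
    have h5 : Real.log (D / 2) ≤ D / 2 - 1 := Real.log_le_sub_one_of_pos (by linarith)
    have h6 : Real.log D = Real.log (D / 2) + Real.log 2 := by
      rw [← Real.log_mul (by linarith) (by norm_num)]; congr 1; ring
    have h7 : Real.log 2 ≤ 1 := by
      have := Real.log_le_sub_one_of_pos (show (0 : ℝ) < 2 by norm_num)
      linarith
    linarith
  calc Real.exp (-((C0 + 1 / 2) * D)) * Real.log D * ∑ k, (1 : ℝ) / 2 ^ d.js k
      ≤ Real.exp (-((C0 + 1 / 2) * D)) * Real.exp (D / 2) * Real.exp (C0 * D) := by gcongr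
    _ = 1 := by
        rw [← Real.exp_add, ← Real.exp_add, Real.exp_eq_one_iff]
        ring

/-- **the reduction** -/
theorem heavy_of_cut (h : HEAVYC) : HEAVY := by
  intro C0 hC0
  obtain ⟨C, hC⟩ := h C0 hC0
  refine ⟨C + 1, fun D n ι _ d hD => ?_⟩
  have h1 := hC D n ι d hD
  have h2 := cut_le d hD
  calc ‖d.gain‖ = ‖(d.gain - gainCut d (Real.exp (-((2 * C0 + 2) * D)))) +
        gainCut d (Real.exp (-((2 * C0 + 2) * D)))‖ := by rw [sub_add_cancel]
    _ ≤ 1 + C * D := (norm_add_le _ _).trans (add_le_add h2 h1)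
    _ ≤ (C + 1) * D := by linarith

end Vale.Agent.P091.H318
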