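import Vale.Agent.P091.H74.Spec

/-! # P091: the dyadic tree of the integer model: grouping of leaves, martingale energy. -/

open Finset

namespace Vale.Agent.P091.H318
open Vale.Agent.P091.Spec

theorem pow_pos' (m : ℕ) : 0 < 2 ^ m := Nat.two_pow_pos m

theorem mem_nd {n j a i : ℕ} : i ∈ nd n j a ↔ anc n j i = a := by
  unfold nd anc
  rw [mem_Ico, Nat.div_eq_iff (pow_pos' _)]
  constructor
  · rintro ⟨h1, h2⟩
    refine ⟨h1, ?_⟩
    have : 0 < 2 ^ (n - j) := pow_pos' _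
    have h3 : (a + 1) * 2 ^ (n - j) = a * 2 ^ (n - j) + 2 ^ (n - j) := by ring
    omega
  · rintro ⟨h1, h2⟩
    refine ⟨h1, ?_⟩
    have : 0 < 2 ^ (n - j) := pow_pos' _
    have h3 : (a + 1) * 2 ^ (n - j) = a * 2 ^ (n - j) + 2 ^ (n - j) := by ring
    omega

theorem anc_lt {n j i : ℕ} (hj : j ≤ n) : anc n j i < 2 ^ j ↔ i < 2 ^ n := by
  unfold anc
  rw [Nat.div_lt_iff_lt_mul (pow_pos' _), ← pow_add]
  rw [show j + (n - j) = n by omega]

theorem nd_subset {n j a : ℕ} (hj : j ≤ n) (ha : a < 2 ^ j) : nd n j a ⊆ range (2 ^ n) := by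
  intro i hi
  rw [mem_nd] at hi
  rw [mem_range, ← anc_lt hj, hi]
  exact ha

theorem filter_anc {n j a : ℕ} (hj : j ≤ n) (ha : a < 2 ^ j) :
    (range (2 ^ n)).filter (fun i => anc n j i = a) = nd n j a := by
  ext i
  rw [mem_filter, mem_nd]
  constructor
  · exact fun h => h.2
  · intro h
    refine ⟨?_, h⟩
    rw [mem_range, ← anc_lt hj, h]
    exact ha

/-- grouping the leaves by their nodes of level `j` -/
theorem sum_leaves {M : Type*} [AddCommMonoid M] {n j : ℕ} (hj : j ≤ n) (F : ℕ → M) :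
    ∑ i ∈ range (2 ^ n), F i = ∑ c ∈ range (2 ^ j), ∑ i ∈ nd n j c, F i := by
  rw [← sum_fiberwise_of_maps_to (s := range (2 ^ n)) (t := range (2 ^ j)) (g := anc n j)]
  · refine sum_congr rfl fun c hc => ?_
    rw [filter_anc hj (mem_range.1 hc)]
  · intro i hi
    rw [mem_range, anc_lt hj]
    exact mem_range.1 hi

theorem card_nd (n j a : ℕ) : (nd n j a).card = 2 ^ (n - j) := by
  unfold nd
  rw [Nat.card_Ico]
  have h3 : (a + 1) * 2 ^ (n - j) = a * 2 ^ (n - j) + 2 ^ (n - j) := by ring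
  rw [h3, Nat.add_sub_cancel_left]

theorem two_pow_sub {n j : ℕ} (hj : j + 1 ≤ n) : 2 ^ (n - j) = 2 * 2 ^ (n - (j + 1)) := by
  rw [show n - j = (n - (j + 1)) + 1 by omega, pow_succ]; ring

theorem nd_union {n j a : ℕ} (hj : j + 1 ≤ n) :
    nd n j a = nd n (j + 1) (2 * a) ∪ nd n (j + 1) (2 * a + 1) := by
  unfold nd
  rw [two_pow_sub hj]
  rw [show (2 * a + 1) * 2 ^ (n - (j + 1)) = (2 * a) * 2 ^ (n - (j + 1)) + 2 ^ (n - (j + 1)) by ring]
  ext i
  simp only [mem_union, mem_Ico]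
  have h1 : a * (2 * 2 ^ (n - (j + 1))) = 2 * a * 2 ^ (n - (j + 1)) := by ring
  have h2 : (a + 1) * (2 * 2 ^ (n - (j + 1))) = 2 * a * 2 ^ (n - (j + 1)) + 2 * 2 ^ (n - (j + 1)) := by
    ring
  have h3 : (2 * a + 1 + 1) * 2 ^ (n - (j + 1)) = 2 * a * 2 ^ (n - (j + 1)) + 2 * 2 ^ (n - (j + 1)) := by
    ring
  rw [h1, h2, h3]
  omega

theorem nd_disj (n j a : ℕ) : Disjoint (nd n (j + 1) (2 * a)) (nd n (j + 1) (2 * a + 1)) := by
  rw [Finset.disjoint_left]
  intro i h1 h2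
  rw [mem_nd] at h1 h2
  omega

theorem sum_nd_succ {M : Type*} [AddCommMonoid M] {n j a : ℕ} (hj : j + 1 ≤ n) (F : ℕ → M) :
    ∑ i ∈ nd n j a, F i = ∑ i ∈ nd n (j + 1) (2 * a), F i + ∑ i ∈ nd n (j + 1) (2 * a + 1), F i := by
  rw [nd_union hj, sum_union (nd_disj n j a)]

theorem sum_range_two_mul {M : Type*} [AddCommMonoid M] (m : ℕ) (g : ℕ → M) :
    ∑ c ∈ range (2 * m), g c = ∑ c ∈ range m, (g (2 * c) + g (2 * c + 1)) := by
  induction m with
  | zero => simp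
  | succ m ih =>
    rw [show 2 * (m + 1) = 2 * m + 1 + 1 by ring, sum_range_succ, sum_range_succ, ih,
      sum_range_succ, add_assoc]

/-- half the difference of the averages over the two children -/
noncomputable def dC (n j a : ℕ) (F : ℕ → ℂ) : ℂ :=
  (avC n (j + 1) (2 * a) F - avC n (j + 1) (2 * a + 1) F) / 2

theorem dB_eq (n : ℕ) (p : ℕ → ℝ) (ξ : ℝ) (j a : ℕ) :
    dB n p ξ j a = dC n j a (fun i => (p i : ℂ) * e (-(ξ * i))) := rfl

theorem avC_succ {n j a : ℕ} (hj : j + 1 ≤ n) (F : ℕ → ℂ) :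
    avC n j a F = (avC n (j + 1) (2 * a) F + avC n (j + 1) (2 * a + 1) F) / 2 := by
  unfold avC
  rw [sum_nd_succ hj]
  have h : ((2 : ℂ) ^ (n - j)) = 2 * 2 ^ (n - (j + 1)) := by
    have := two_pow_sub hj
    exact_mod_cast this
  rw [h]
  field_simp

/-- the parallelogram identity in the form used for the martingale energy -/
theorem par (x y : ℂ) : ‖x‖ ^ 2 + ‖y‖ ^ 2 = 2 * (‖(x + y) / 2‖ ^ 2 + ‖(x - y) / 2‖ ^ 2) := by
  have h := parallelogram_law_with_norm ℝ x y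
  rw [norm_div, norm_div, Complex.norm_ofNat]
  nlinarith [h]

/-- energy of a function at one level -/
noncomputable def En (n : ℕ) (F : ℕ → ℂ) (j : ℕ) : ℝ :=
  ∑ c ∈ range (2 ^ j), (2 : ℝ) ^ (n - j) * ‖avC n j c F‖ ^ 2

theorem En_succ {n j : ℕ} (hj : j + 1 ≤ n) (F : ℕ → ℂ) :
    En n F (j + 1) = En n F j + ∑ c ∈ range (2 ^ j), (2 : ℝ) ^ (n - j) * ‖dC n j c F‖ ^ 2 := by
  unfold En
  rw [pow_succ, mul_comm (2 ^ j) 2, sum_range_two_mul, ← sum_add_distrib]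
  refine sum_congr rfl fun c _ => ?_
  have h : ((2 : ℝ) ^ (n - j)) = 2 * 2 ^ (n - (j + 1)) := by
    have := two_pow_sub hj
    exact_mod_cast this
  rw [h, avC_succ hj F, dC, ← mul_add, ← mul_add, par]
  ring

theorem En_top (n : ℕ) (F : ℕ → ℂ) : En n F n = ∑ i ∈ range (2 ^ n), ‖F i‖ ^ 2 := by
  unfold En
  refine sum_congr rfl fun c _ => ?_
  simp [avC, nd]

theorem En_nonneg (n : ℕ) (F : ℕ → ℂ) (j : ℕ) : 0 ≤ En n F j :=
  sum_nonneg fun _ _ => by positivity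

/-- **martingale energy** -/
theorem energy (n : ℕ) (F : ℕ → ℂ) :
    ∑ j ∈ range n, ∑ c ∈ range (2 ^ j), (2 : ℝ) ^ (n - j) * ‖dC n j c F‖ ^ 2 ≤
      ∑ i ∈ range (2 ^ n), ‖F i‖ ^ 2 := by
  have key : ∀ m ≤ n, ∑ j ∈ range m, ∑ c ∈ range (2 ^ j), (2 : ℝ) ^ (n - j) * ‖dC n j c F‖ ^ 2 =
      En n F m - En n F 0 := by
    intro m hm
    induction m with
    | zero => simp
    | succ m ih =>
      rw [sum_range_succ, ih (by omega), En_succ hm]
      ring
  rw [key n le_rfl, En_top]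
  linarith [En_nonneg n F 0]

theorem avC_congr {n j a : ℕ} {F G : ℕ → ℂ} (h : ∀ i ∈ nd n j a, F i = G i) :
    avC n j a F = avC n j a G := by
  unfold avC
  rw [sum_congr rfl h]

theorem dC_congr {n j a : ℕ} (hj : j + 1 ≤ n) {F G : ℕ → ℂ} (h : ∀ i ∈ nd n j a, F i = G i) :
    dC n j a F = dC n j a G := by
  have h1 : avC n (j + 1) (2 * a) F = avC n (j + 1) (2 * a) G :=
    avC_congr fun i hi => h i (by rw [nd_union hj]; exact mem_union_left _ hi)
  have h2 : avC n (j + 1) (2 * a + 1) F = avC n (j + 1) (2 * a + 1) G :=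
    avC_congr fun i hi => h i (by rw [nd_union hj]; exact mem_union_right _ hi)
  unfold dC
  rw [h1, h2]

theorem dC_zero {n j a : ℕ} (hj : j + 1 ≤ n) {F : ℕ → ℂ} (h : ∀ i ∈ nd n j a, F i = 0) :
    dC n j a F = 0 := by
  rw [dC_congr hj (G := fun _ => 0) h]
  simp [dC, avC]

/-- ancestors of leaves of the same node -/
theorem anc_anc {n j t i : ℕ} (htj : t ≤ j) (hj : j ≤ n) :
    anc n t i = anc n j i / 2 ^ (j - t) := by
  unfold anc
  rw [Nat.div_div_eq_div_mul, ← pow_add, show n - j + (j - t) = n - t by omega]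

theorem anc_eq_of_mem {n j c t i i' : ℕ} (htj : t ≤ j) (hj : j ≤ n) (hi : i ∈ nd n j c)
    (hi' : i' ∈ nd n j c) : anc n t i = anc n t i' := by
  rw [mem_nd] at hi hi'
  rw [anc_anc htj hj, anc_anc htj hj, hi, hi']

end Vale.Agent.P091.H318
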